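import Vale.Agent.P159.T1.D.Defs

/-!
Discrete harmonic functions on the faces of `ℤ²` (row S.HARM of plan 118 of P159): maximum
principle, Dirichlet problem, gradient bounds, energy identity.
-/

open Filter Topology

namespace Vale.Agent.P159.T1.S.H777

open Vale.Agent.P159.T1.D

/-- the discrete Laplacian -/
def lap (v : Z2 → ℝ) (f : Z2) : ℝ :=
  v (f.1 + 1, f.2) + v (f.1 - 1, f.2) + v (f.1, f.2 + 1) + v (f.1, f.2 - 1) - 4 * v f

lemma lap_add (v w : Z2 → ℝ) (f : Z2) : lap (fun g => v g + w g) f = lap v f + lap w f := by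
  unfold lap; ring

lemma lap_sub (v w : Z2 → ℝ) (f : Z2) : lap (fun g => v g - w g) f = lap v f - lap w f := by
  unfold lap; ring

lemma lap_neg (v : Z2 → ℝ) (f : Z2) : lap (fun g => - v g) f = - lap v f := by
  unfold lap; ring

lemma lap_smul (c : ℝ) (v : Z2 → ℝ) (f : Z2) : lap (fun g => c * v g) f = c * lap v f := by
  unfold lap; ring

lemma lap_const (c : ℝ) (f : Z2) : lap (fun _ => c) f = 0 := by
  unfold lap; ring

/-! ### the maximum principle -/

/-- **maximum principle**: a subharmonic function is bounded by its values outside -/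
theorem max_principle {R : Finset Z2} {v : Z2 → ℝ} {M : ℝ} (hv : ∀ f ∈ R, 0 ≤ lap v f)
    (hM : ∀ f, f ∉ R → v f ≤ M) : ∀ f, v f ≤ M := by
  classical
  by_contra hcon
  push Not at hcon
  obtain ⟨f0, hf0⟩ := hcon
  have hR : R.Nonempty := ⟨f0, by
    by_contra h
    exact absurd (hM f0 h) (not_le.2 hf0)⟩
  obtain ⟨f1, hf1R, hf1⟩ := R.exists_max_image v hR
  have hm : M < v f1 := by
    have hf0R : f0 ∈ R := by
      by_contra h
      exact absurd (hM f0 h) (not_le.2 hf0)
    exact hf0.trans_le (hf1 f0 hf0R)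
  have hall : ∀ g, v g ≤ v f1 := fun g => by
    by_cases hg : g ∈ R
    · exact hf1 g hg
    · exact (hM g hg).trans hm.le
  obtain ⟨f2, hf2, hf2m⟩ := (R.filter fun f => v f = v f1).exists_max_image (fun f => f.1)
    ⟨f1, Finset.mem_filter.2 ⟨hf1R, rfl⟩⟩
  obtain ⟨hf2R, hf2v⟩ := Finset.mem_filter.1 hf2
  have h1 := hv f2 hf2R
  unfold lap at h1
  have h2 := hall (f2.1 + 1, f2.2)
  have h3 := hall (f2.1 - 1, f2.2)
  have h4 := hall (f2.1, f2.2 + 1)
  have h5 := hall (f2.1, f2.2 - 1)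
  have h6 : v (f2.1 + 1, f2.2) = v f1 := by linarith
  have h7 : (f2.1 + 1, f2.2) ∈ R := by
    by_contra h
    have := hM _ h
    linarith
  have h8 := hf2m _ (Finset.mem_filter.2 ⟨h7, h6⟩)
  simp only at h8
  omega

theorem min_principle {R : Finset Z2} {v : Z2 → ℝ} {M : ℝ} (hv : ∀ f ∈ R, lap v f ≤ 0)
    (hM : ∀ f, f ∉ R → M ≤ v f) : ∀ f, M ≤ v f := by
  intro f
  have := max_principle (R := R) (v := fun g => - v g) (M := -M)
    (fun g hg => by rw [lap_neg]; linarith [hv g hg]) (fun g hg => by linarith [hM g hg]) f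
  linarith

/-- comparison -/
theorem comparison {R : Finset Z2} {v w : Z2 → ℝ} (hv : ∀ f ∈ R, lap w f ≤ lap v f)
    (hM : ∀ f, f ∉ R → v f ≤ w f) : ∀ f, v f ≤ w f := by
  intro f
  have := max_principle (R := R) (v := fun g => v g - w g) (M := 0)
    (fun g hg => by rw [lap_sub]; linarith [hv g hg]) (fun g hg => by linarith [hM g hg]) f
  linarith

theorem harm_abs_le {R : Finset Z2} {v : Z2 → ℝ} {M : ℝ} (hv : ∀ f ∈ R, lap v f = 0)
    (hM : ∀ f, f ∉ R → |v f| ≤ M) : ∀ f, |v f| ≤ M := by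
  intro f
  rw [abs_le]
  exact ⟨min_principle (fun g hg => (hv g hg).le) (fun g hg => (abs_le.1 (hM g hg)).1) f,
    max_principle (fun g hg => (hv g hg).ge) (fun g hg => (abs_le.1 (hM g hg)).2) f⟩

/-! ### the Dirichlet problem -/

open Classical in
/-- extension by zero -/
noncomputable def ext0 (R : Finset Z2) (x : R → ℝ) (f : Z2) : ℝ :=
  if h : f ∈ R then x ⟨f, h⟩ else 0

lemma ext0_in {R : Finset Z2} (x : R → ℝ) (f : R) : ext0 R x f.1 = x f := by
  unfold ext0
  rw [dif_pos f.2]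

lemma ext0_out {R : Finset Z2} (x : R → ℝ) {f : Z2} (hf : f ∉ R) : ext0 R x f = 0 := by
  unfold ext0
  rw [dif_neg hf]

/-- the Laplacian on the functions which vanish outside `R` -/
noncomputable def lapL (R : Finset Z2) : (R → ℝ) →ₗ[ℝ] (R → ℝ) where
  toFun x f := lap (ext0 R x) f.1
  map_add' x y := by
    have h : ext0 R (x + y) = fun g => ext0 R x g + ext0 R y g := by
      funext g
      unfold ext0
      split_ifs <;> simp
    funext f
    rw [h, lap_add]
    rfl
  map_smul' c x := by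
    have h : ext0 R (c • x) = fun g => c * ext0 R x g := by
      funext g
      unfold ext0
      split_ifs <;> simp
    funext f
    rw [h, lap_smul]
    rfl

lemma lapL_injective (R : Finset Z2) : Function.Injective (lapL R) := by
  rw [← LinearMap.ker_eq_bot, LinearMap.ker_eq_bot']
  intro x hx
  have h1 : ∀ f ∈ R, lap (ext0 R x) f = 0 := fun f hf => congrFun hx ⟨f, hf⟩
  have h2 := harm_abs_le (R := R) (v := ext0 R x) (M := 0) h1
    (fun f hf => by rw [ext0_out x hf, abs_zero])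
  funext f
  have h3 := h2 f.1
  rw [ext0_in] at h3
  exact abs_nonpos_iff.1 h3

/-- **Poisson problem**: existence -/
theorem exists_poisson (R : Finset Z2) (t g : Z2 → ℝ) :
    ∃ v : Z2 → ℝ, (∀ f, f ∉ R → v f = t f) ∧ ∀ f ∈ R, lap v f = g f := by
  obtain ⟨x, hx⟩ := (LinearMap.injective_iff_surjective.1 (lapL_injective R))
    (fun f => g f.1 - lap t f.1)
  refine ⟨fun f => t f + ext0 R x f, fun f hf => ?_, fun f hf => ?_⟩
  · show t f + ext0 R x f = t f
    rw [ext0_out x hf, add_zero]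
  · show lap (fun f => t f + ext0 R x f) f = g f
    rw [lap_add]
    have h1 : lap (ext0 R x) f = g f - lap t f := congrFun hx ⟨f, hf⟩
    rw [h1]
    ring

/-- **Dirichlet problem**: existence -/
theorem exists_dirichlet (R : Finset Z2) (t : Z2 → ℝ) :
    ∃ v : Z2 → ℝ, (∀ f, f ∉ R → v f = t f) ∧ ∀ f ∈ R, lap v f = 0 :=
  exists_poisson R t fun _ => 0

/-- uniqueness -/
theorem unique_poisson {R : Finset Z2} {v w : Z2 → ℝ} (h1 : ∀ f, f ∉ R → v f = w f)
    (h2 : ∀ f ∈ R, lap v f = lap w f) : v = w := by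
  funext f
  exact le_antisymm (comparison (R := R) (fun g hg => (h2 g hg).ge) (fun g hg => (h1 g hg).le) f)
    (comparison (R := R) (fun g hg => (h2 g hg).le) (fun g hg => (h1 g hg).ge) f)

/-! ### gradient bounds -/

/-- the maximum principle with a weaker condition on the left neighbours -/
theorem max_principle_left {R : Finset Z2} {v : Z2 → ℝ} {M : ℝ} (hv : ∀ f ∈ R, 0 ≤ lap v f)
    (hr : ∀ f ∈ R, (f.1 + 1, f.2) ∉ R → v (f.1 + 1, f.2) ≤ M)
    (hu : ∀ f ∈ R, (f.1, f.2 + 1) ∉ R → v (f.1, f.2 + 1) ≤ M)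
    (hd : ∀ f ∈ R, (f.1, f.2 - 1) ∉ R → v (f.1, f.2 - 1) ≤ M)
    (hl : ∀ f ∈ R, M < v f → (f.1 - 1, f.2) ∉ R → v (f.1 - 1, f.2) ≤ M) :
    ∀ f ∈ R, v f ≤ M := by
  classical
  by_contra hcon
  push Not at hcon
  obtain ⟨f0, hf0R, hf0⟩ := hcon
  obtain ⟨f1, hf1R, hf1⟩ := R.exists_max_image v ⟨f0, hf0R⟩
  have hm : M < v f1 := hf0.trans_le (hf1 f0 hf0R)
  obtain ⟨f2, hf2, hf2m⟩ := (R.filter fun f => v f = v f1).exists_max_image (fun f => f.1)
    ⟨f1, Finset.mem_filter.2 ⟨hf1R, rfl⟩⟩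
  obtain ⟨hf2R, hf2v⟩ := Finset.mem_filter.1 hf2
  have h1 := hv f2 hf2R
  unfold lap at h1
  have h2 : v (f2.1 + 1, f2.2) ≤ v f1 := by
    by_cases hg : (f2.1 + 1, f2.2) ∈ R
    · exact hf1 _ hg
    · exact (hr f2 hf2R hg).trans hm.le
  have h3 : v (f2.1 - 1, f2.2) ≤ v f1 := by
    by_cases hg : (f2.1 - 1, f2.2) ∈ R
    · exact hf1 _ hg
    · exact (hl f2 hf2R (by rw [hf2v]; exact hm) hg).trans hm.le
  have h4 : v (f2.1, f2.2 + 1) ≤ v f1 := by
    by_cases hg : (f2.1, f2.2 + 1) ∈ R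
    · exact hf1 _ hg
    · exact (hu f2 hf2R hg).trans hm.le
  have h5 : v (f2.1, f2.2 - 1) ≤ v f1 := by
    by_cases hg : (f2.1, f2.2 - 1) ∈ R
    · exact hf1 _ hg
    · exact (hd f2 hf2R hg).trans hm.le
  have h6 : v (f2.1 + 1, f2.2) = v f1 := by linarith
  have h7 : (f2.1 + 1, f2.2) ∈ R := by
    by_contra h
    have := hr _ hf2R h
    linarith
  have h8 := hf2m _ (Finset.mem_filter.2 ⟨h7, h6⟩)
  simp only at h8
  omega

/-- the barrier -/
noncomputable def bar (m : ℝ) (f : Z2) : ℝ :=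
  2 * ((f.1 : ℝ) - 1 / 2) / m - (((f.1 : ℝ) - 1 / 2) / m) ^ 2 + ((f.2 : ℝ) / m) ^ 2 +
    1 / (4 * m ^ 2)

lemma lap_bar (m : ℝ) (f : Z2) : lap (bar m) f = 0 := by
  unfold lap bar
  push_cast
  ring

lemma bar_ge {m : ℕ} (hm : 1 ≤ m) {i j : ℤ} (h1 : 1 ≤ i) (h2 : i ≤ m)
    (hj : (m : ℤ) + 1 ≤ |j|) : 1 ≤ bar m (i, j) := by
  have hm' : (1 : ℝ) ≤ m := by exact_mod_cast hm
  have h1' : (1 : ℝ) ≤ i := by exact_mod_cast h1
  have h2' : (i : ℝ) ≤ m := by exact_mod_cast h2
  have hj' : (m : ℝ) + 1 ≤ |(j : ℝ)| := by exact_mod_cast hj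
  have h3 : 1 ≤ ((j : ℝ) / m) ^ 2 := by
    have h4 : 1 ≤ |(j : ℝ)| / m := by
      rw [le_div_iff₀ (by linarith)]
      linarith
    rw [div_pow, ← sq_abs, ← div_pow]
    exact one_le_pow₀ h4
  have h4 : 0 ≤ ((i : ℝ) - 1 / 2) / m := div_nonneg (by linarith) (by linarith)
  have h5 : ((i : ℝ) - 1 / 2) / m ≤ 1 := by
    rw [div_le_one (by linarith)]
    linarith
  have h6 : (0 : ℝ) < 1 / (4 * (m : ℝ) ^ 2) := by positivity
  unfold bar
  rw [mul_div_assoc]
  nlinarith

/-- one-sided gradient bound at the origin -/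
lemma grad_origin {v : Z2 → ℝ} {m : ℕ} (hm : 1 ≤ m) {S : ℝ}
    (hS : ∀ f : Z2, |f.1| ≤ m + 1 → |f.2| ≤ m + 1 → |v f| ≤ S)
    (hv : ∀ f : Z2, |f.1| ≤ m → |f.2| ≤ m → lap v f = 0) :
    v (1, 0) - v (0, 0) ≤ 2 * S / m := by
  have hm' : (1 : ℝ) ≤ m := by exact_mod_cast hm
  have hm0 : (0 : ℝ) < m := by linarith
  have hS0 : 0 ≤ S := (abs_nonneg _).trans (hS (0, 0) (by simp; positivity) (by simp; positivity))
  set u : Z2 → ℝ := fun f => v f - v (1 - f.1, f.2) with hu
  have hubd : ∀ f : Z2, |f.1| ≤ m + 1 → |1 - f.1| ≤ m + 1 → |f.2| ≤ m + 1 → u f ≤ 2 * S := by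
    intro f h1 h2 h3
    have h4 := (abs_le.1 (hS f h1 h3)).2
    have h5 := (abs_le.1 (hS (1 - f.1, f.2) h2 h3)).1
    simp only [hu]
    linarith
  set φ : Z2 → ℝ := fun f => u f - 2 * S * bar m f with hφ
  have key : ∀ f ∈ Finset.Icc (1 : ℤ) m ×ˢ Finset.Icc (-(m : ℤ)) m, φ f ≤ 0 := by
    apply max_principle_left
    · rintro ⟨i, j⟩ hf
      simp only [Finset.mem_product, Finset.mem_Icc] at hf
      have h1 := hv (i, j) (by rw [abs_le]; constructor <;> omega) (by rw [abs_le]; exact hf.2)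
      have h2 := hv (1 - i, j) (by rw [abs_le]; constructor <;> omega) (by rw [abs_le]; exact hf.2)
      have h3 := lap_bar m (i, j)
      have h4 : lap φ (i, j) = lap v (i, j) - lap v (1 - i, j) - 2 * S * lap (bar m) (i, j) := by
        simp only [lap, hφ, hu]
        rw [show (1 : ℤ) - (i + 1) = 1 - i - 1 by ring, show (1 : ℤ) - (i - 1) = 1 - i + 1 by ring]
        ring
      rw [h4, h1, h2, h3]
      simp
    · rintro ⟨i, j⟩ hf hf2
      simp only [Finset.mem_product, Finset.mem_Icc, not_and_or, not_le] at hf hf2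
      obtain rfl : i = m := by omega
      have h1 := hubd ((m : ℤ) + 1, j) (by rw [abs_le]; constructor <;> omega)
        (by rw [abs_le]; constructor <;> omega) (by rw [abs_le]; constructor <;> omega)
      have h2 : 1 ≤ bar m ((m : ℤ) + 1, j) := by
        unfold bar
        push_cast
        have h3 : 2 * ((m : ℝ) + 1 - 1 / 2) / m - (((m : ℝ) + 1 - 1 / 2) / m) ^ 2 +
            ((j : ℝ) / m) ^ 2 + 1 / (4 * (m : ℝ) ^ 2) = 1 + ((j : ℝ) / m) ^ 2 := by
          field_simp
          ring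
        rw [h3]
        nlinarith [sq_nonneg ((j : ℝ) / m)]
      simp only [hφ]
      nlinarith
    · rintro ⟨i, j⟩ hf hf2
      simp only [Finset.mem_product, Finset.mem_Icc, not_and_or, not_le] at hf hf2
      obtain rfl : j = m := by omega
      have h1 := hubd (i, (m : ℤ) + 1) (by rw [abs_le]; constructor <;> omega)
        (by rw [abs_le]; constructor <;> omega) (by rw [abs_le]; constructor <;> omega)
      have h2 : 1 ≤ bar m (i, (m : ℤ) + 1) := bar_ge hm hf.1.1 hf.1.2 (le_abs_self _)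
      simp only [hφ]
      nlinarith
    · rintro ⟨i, j⟩ hf hf2
      simp only [Finset.mem_product, Finset.mem_Icc, not_and_or, not_le] at hf hf2
      obtain rfl : j = -m := by omega
      have h1 := hubd (i, -(m : ℤ) - 1) (by rw [abs_le]; constructor <;> omega)
        (by rw [abs_le]; constructor <;> omega) (by rw [abs_le]; constructor <;> omega)
      have h2 : 1 ≤ bar m (i, -(m : ℤ) - 1) := bar_ge hm hf.1.1 hf.1.2
        (by rw [show -(m : ℤ) - 1 = -((m : ℤ) + 1) by ring, abs_neg]; exact le_abs_self _)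
      simp only [hφ]
      nlinarith
    · rintro ⟨i, j⟩ hf hf1 hf2
      simp only [Finset.mem_product, Finset.mem_Icc, not_and_or, not_le] at hf hf2
      obtain rfl : i = 1 := by omega
      have h2 : 0 ≤ bar m (0, j) + bar m (1, j) := by
        have h3 : bar m (0, j) + bar m (1, j) = 2 * ((j : ℝ) / m) ^ 2 := by
          unfold bar
          push_cast
          field_simp
          ring
        rw [h3]
        positivity
      simp only [hφ, hu] at hf1 ⊢
      norm_num at hf1 ⊢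
      nlinarith
  have h1 := key (1, 0) (by simp; omega)
  have h2 : bar m (1, 0) = 1 / m := by
    unfold bar
    push_cast
    field_simp
    ring
  simp only [hφ, hu, h2] at h1
  norm_num at h1
  rw [mul_div_assoc, div_eq_mul_inv, ← mul_assoc]
  linarith

/-- the four directions -/
def dirs : Finset Z2 := {(1, 0), (-1, 0), (0, 1), (0, -1)}

/-- **gradient bound** -/
theorem grad_bound {v : Z2 → ℝ} {f0 : Z2} {m : ℕ} (hm : 1 ≤ m) {S : ℝ}
    (hS : ∀ f : Z2, |f.1 - f0.1| ≤ m + 1 → |f.2 - f0.2| ≤ m + 1 → |v f| ≤ S)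
    (hv : ∀ f : Z2, |f.1 - f0.1| ≤ m → |f.2 - f0.2| ≤ m → lap v f = 0) :
    ∀ e ∈ dirs, |v (f0 + e) - v f0| ≤ 2 * S / m := by
  have main : ∀ (w : Z2 → ℝ), (∀ f : Z2, |f.1| ≤ m + 1 → |f.2| ≤ m + 1 → |w f| ≤ S) →
      (∀ f : Z2, |f.1| ≤ m → |f.2| ≤ m → lap w f = 0) → |w (1, 0) - w (0, 0)| ≤ 2 * S / m := by
    intro w h1 h2
    rw [abs_le]
    constructor
    · have := grad_origin hm (v := fun g => - w g) (S := S)
        (fun f a b => by rw [abs_neg]; exact h1 f a b)
        (fun f a b => by rw [lap_neg, h2 f a b, neg_zero])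
      linarith
    · exact grad_origin hm h1 h2
  intro e he
  simp only [dirs, Finset.mem_insert, Finset.mem_singleton] at he
  rcases he with rfl | rfl | rfl | rfl
  · have := main (fun g => v (f0.1 + g.1, f0.2 + g.2))
      (fun f a b => hS _ (by simpa using a) (by simpa using b))
      (fun f a b => by
        have h := hv (f0.1 + f.1, f0.2 + f.2) (by simpa using a) (by simpa using b)
        simp only [lap] at h ⊢
        rw [← h]
        simp only [add_assoc, add_sub_assoc])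
    show |v (f0.1 + 1, f0.2 + 0) - v f0| ≤ _
    simpa using this
  · have := main (fun g => v (f0.1 - g.1, f0.2 + g.2))
      (fun f a b => hS _ (by simpa using a) (by simpa using b))
      (fun f a b => by
        have h := hv (f0.1 - f.1, f0.2 + f.2) (by simpa using a) (by simpa using b)
        simp only [lap] at h ⊢
        rw [← h, show f0.1 - (f.1 + 1) = f0.1 - f.1 - 1 by ring,
          show f0.1 - (f.1 - 1) = f0.1 - f.1 + 1 by ring]
        simp only [add_assoc, add_sub_assoc]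
        ring)
    show |v (f0.1 + -1, f0.2 + 0) - v f0| ≤ _
    simpa [← sub_eq_add_neg] using this
  · have := main (fun g => v (f0.1 + g.2, f0.2 + g.1))
      (fun f a b => hS _ (by simpa using b) (by simpa using a))
      (fun f a b => by
        have h := hv (f0.1 + f.2, f0.2 + f.1) (by simpa using b) (by simpa using a)
        simp only [lap] at h ⊢
        rw [← h]
        simp only [add_assoc, add_sub_assoc]
        ring)
    show |v (f0.1 + 0, f0.2 + 1) - v f0| ≤ _
    simpa using this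
  · have := main (fun g => v (f0.1 + g.2, f0.2 - g.1))
      (fun f a b => hS _ (by simpa using b) (by simpa using a))
      (fun f a b => by
        have h := hv (f0.1 + f.2, f0.2 - f.1) (by simpa using b) (by simpa using a)
        simp only [lap] at h ⊢
        rw [← h, show f0.2 - (f.1 + 1) = f0.2 - f.1 - 1 by ring,
          show f0.2 - (f.1 - 1) = f0.2 - f.1 + 1 by ring]
        simp only [add_assoc, add_sub_assoc]
        ring)
    show |v (f0.1 + 0, f0.2 + -1) - v f0| ≤ _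
    simpa [← sub_eq_add_neg] using this

/-- **second differences** -/
theorem second_bound {v : Z2 → ℝ} {f0 : Z2} {k : ℕ} (hk : 1 ≤ k) {S : ℝ}
    (hS : ∀ f : Z2, |f.1 - f0.1| ≤ 2 * k + 2 → |f.2 - f0.2| ≤ 2 * k + 2 → |v f| ≤ S)
    (hv : ∀ f : Z2, |f.1 - f0.1| ≤ 2 * k + 1 → |f.2 - f0.2| ≤ 2 * k + 1 → lap v f = 0) :
    ∀ e ∈ dirs, ∀ e' ∈ dirs,
      |v (f0 + e + e') - v (f0 + e) - (v (f0 + e') - v f0)| ≤ 4 * S / (k : ℝ) ^ 2 := by
  intro e he e' he'
  have hk' : (1 : ℝ) ≤ k := by exact_mod_cast hk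
  have h1 := grad_bound (v := fun f => v (f + e') - v f) (f0 := f0) hk (S := 2 * S / k)
    (fun f a b => grad_bound (v := v) (f0 := f) hk (S := S)
      (fun g a' b' => hS g (by rw [abs_le] at *; constructor <;> omega)
        (by rw [abs_le] at *; constructor <;> omega))
      (fun g a' b' => hv g (by rw [abs_le] at *; constructor <;> omega)
        (by rw [abs_le] at *; constructor <;> omega)) e' he')
    (fun f a b => by
      have h2 : lap v (f + e') = 0 := by
        simp only [dirs, Finset.mem_insert, Finset.mem_singleton] at he'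
        rcases he' with rfl | rfl | rfl | rfl <;>
          (apply hv <;> simp only [Prod.fst_add, Prod.snd_add] <;> rw [abs_le] at * <;>
            constructor <;> omega)
      have h3 : lap v f = 0 := hv f (by rw [abs_le] at *; constructor <;> omega)
        (by rw [abs_le] at *; constructor <;> omega)
      have h4 : lap (fun f => v (f + e') - v f) f = lap v (f + e') - lap v f := by
        simp only [lap]
        obtain ⟨a1, a2⟩ := e'
        simp only [Prod.fst_add, Prod.snd_add, Prod.mk_add_mk]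
        rw [show f.1 + 1 + a1 = f.1 + a1 + 1 by ring, show f.1 - 1 + a1 = f.1 + a1 - 1 by ring,
          show f.2 + 1 + a2 = f.2 + a2 + 1 by ring, show f.2 - 1 + a2 = f.2 + a2 - 1 by ring]
        ring
      rw [h4, h2, h3, sub_zero]) e he
  refine (le_of_eq ?_).trans (h1.trans (le_of_eq ?_))
  · rfl
  · field_simp
    ring

/-! ### summation by parts -/

lemma sides_subset_bd {R : Finset Z2} {f : Z2} (hf : f ∈ R) : sides f ⊆ bd R :=
  Finset.subset_biUnion_of_mem sides hf

lemma mem_sides_lf (e : Bnd) : e ∈ sides (lf e) := by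
  obtain ⟨⟨i, j⟩, d⟩ := e
  cases d <;> simp [sides, lf]

lemma mem_sides_rt (e : Bnd) : e ∈ sides (rt e) := by
  obtain ⟨⟨i, j⟩, d⟩ := e
  cases d <;> simp [sides, rt]

lemma dr_off {R : Finset Z2} {φ : Z2 → ℝ} (hφ : ∀ f, f ∉ R → φ f = 0) {e : Bnd}
    (he : e ∉ bd R) : dr φ e = 0 := by
  unfold dr
  rw [hφ (lf e) fun h => he (sides_subset_bd h (mem_sides_lf e)),
    hφ (rt e) fun h => he (sides_subset_bd h (mem_sides_rt e)), sub_zero]

/-- the divergence of a field at a face (the expression of `IsDiv`) -/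
def dvg (B : Bnd → ℝ) (f : Z2) : ℝ :=
  B (f, false) - B ((f.1, f.2 + 1), false) + B ((f.1 + 1, f.2), true) - B (f, true)

lemma dvg_dr (v : Z2 → ℝ) (f : Z2) : dvg (dr v) f = - lap v f := by
  unfold dvg dr lap
  simp only [lf, rt]
  norm_num
  ring

/-- **summation by parts**: `φ` vanishes outside `R`, all sides of `R` belong to `S` -/
theorem sum_mul_dr {R : Finset Z2} {S : Finset Bnd} (hS : bd R ⊆ S) (B : Bnd → ℝ) {φ : Z2 → ℝ}
    (hφ : ∀ f, f ∉ R → φ f = 0) : ∑ e ∈ S, B e * dr φ e = ∑ f ∈ R, φ f * dvg B f := by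
  classical
  rw [← Finset.sum_subset hS fun e _ he => by rw [dr_off hφ he, mul_zero]]
  have h1 : ∑ e ∈ bd R, B e * dr φ e =
      ∑ e ∈ bd R, B e * φ (lf e) - ∑ e ∈ bd R, B e * φ (rt e) := by
    rw [← Finset.sum_sub_distrib]
    refine Finset.sum_congr rfl fun e _ => ?_
    unfold dr
    ring
  have h2 : ∀ F : Bnd → Z2, (∑ e ∈ bd R, B e * φ (F e)) =
      ∑ f ∈ R, φ f * ∑ e ∈ (bd R).filter (fun e => F e = f), B e := by
    intro F
    have h3 : ∀ e ∈ bd R, B e * φ (F e) = ∑ f ∈ R, if F e = f then φ f * B e else 0 := by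
      intro e _
      rw [Finset.sum_ite_eq]
      split_ifs with h4
      · ring
      · rw [hφ _ h4, mul_zero]
    rw [Finset.sum_congr rfl h3, Finset.sum_comm]
    refine Finset.sum_congr rfl fun f _ => ?_
    rw [Finset.mul_sum, Finset.sum_filter]
  rw [h1, h2, h2, ← Finset.sum_sub_distrib]
  refine Finset.sum_congr rfl fun f hf => ?_
  have h3 : (bd R).filter (fun e => lf e = f) = {(f, false), ((f.1 + 1, f.2), true)} := by
    ext e
    simp only [Finset.mem_filter, Finset.mem_insert, Finset.mem_singleton]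
    constructor
    · rintro ⟨-, rfl⟩
      obtain ⟨⟨i, j⟩, d⟩ := e
      cases d <;> simp [lf]
    · rintro (rfl | rfl)
      · exact ⟨sides_subset_bd hf (by simp [sides]), by simp [lf]⟩
      · exact ⟨sides_subset_bd hf (by simp [sides]), by simp [lf]⟩
  have h4 : (bd R).filter (fun e => rt e = f) = {((f.1, f.2 + 1), false), (f, true)} := by
    ext e
    simp only [Finset.mem_filter, Finset.mem_insert, Finset.mem_singleton]
    constructor
    · rintro ⟨-, rfl⟩
      obtain ⟨⟨i, j⟩, d⟩ := e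
      cases d <;> simp [rt]
    · rintro (rfl | rfl)
      · exact ⟨sides_subset_bd hf (by simp [sides]), by simp [rt]⟩
      · exact ⟨sides_subset_bd hf (by simp [sides]), by simp [rt]⟩
  rw [h3, h4, Finset.sum_pair (by simp), Finset.sum_pair (by simp)]
  unfold dvg
  ring

/-- energy identity: a harmonic function is orthogonal to the functions which vanish outside -/
theorem sum_dr_mul_dr {R : Finset Z2} {S : Finset Bnd} (hS : bd R ⊆ S) {v φ : Z2 → ℝ}
    (hv : ∀ f ∈ R, lap v f = 0) (hφ : ∀ f, f ∉ R → φ f = 0) :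
    ∑ e ∈ S, dr v e * dr φ e = 0 := by
  rw [sum_mul_dr hS _ hφ]
  exact Finset.sum_eq_zero fun f hf => by rw [dvg_dr, hv f hf, neg_zero, mul_zero]

/-- Dirichlet principle -/
theorem dirichlet_principle {R : Finset Z2} {S : Finset Bnd} (hS : bd R ⊆ S) {v w : Z2 → ℝ}
    (hv : ∀ f ∈ R, lap v f = 0) (hw : ∀ f, f ∉ R → v f = w f) :
    ∑ e ∈ S, dr v e ^ 2 + ∑ e ∈ S, (dr w e - dr v e) ^ 2 = ∑ e ∈ S, dr w e ^ 2 := by
  have h1 := sum_dr_mul_dr hS hv (φ := fun f => w f - v f) (fun f hf => by rw [hw f hf, sub_self])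
  have h2 : ∀ e, dr w e ^ 2 = dr v e ^ 2 + (dr w e - dr v e) ^ 2 +
      2 * (dr v e * dr (fun f => w f - v f) e) := by
    intro e
    unfold dr
    ring
  rw [Finset.sum_congr rfl fun e _ => h2 e, Finset.sum_add_distrib, Finset.sum_add_distrib,
    ← Finset.mul_sum, h1]
  ring

theorem dirichlet_le {R : Finset Z2} {S : Finset Bnd} (hS : bd R ⊆ S) {v w : Z2 → ℝ}
    (hv : ∀ f ∈ R, lap v f = 0) (hw : ∀ f, f ∉ R → v f = w f) :
    ∑ e ∈ S, dr v e ^ 2 ≤ ∑ e ∈ S, dr w e ^ 2 := by
  have := dirichlet_principle hS hv hw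
  have h2 : 0 ≤ ∑ e ∈ S, (dr w e - dr v e) ^ 2 := Finset.sum_nonneg fun e _ => sq_nonneg _
  linarith

end Vale.Agent.P159.T1.S.H777
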