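import Vale.Agent.P159.T1.S.H777.Harm

/-!
Courant-Lebesgue lemma on square rings (row S.CL of plan 118 of P159).
-/

open Filter Topology

namespace Vale.Agent.P159.T1.S.H777

open Vale.Agent.P159.T1.D

/-! ### one side -/

/-- variation along a segment -/
lemma seg_le (g : ℤ → ℝ) {a b : ℤ} (hab : a ≤ b) :
    |g b - g a| ≤ ∑ j ∈ Finset.Ico a b, |g (j + 1) - g j| := by
  obtain ⟨n, rfl⟩ := Int.le.dest hab
  clear hab
  induction n with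
  | zero => simp
  | succ n ih =>
    have h1 : Finset.Ico a (a + ((n + 1 : ℕ) : ℤ)) = insert (a + n) (Finset.Ico a (a + n)) := by
      ext x
      simp only [Finset.mem_Ico, Finset.mem_insert]
      push_cast
      omega
    rw [h1, Finset.sum_insert (by simp)]
    have h2 : g (a + ((n + 1 : ℕ) : ℤ)) - g a = (g (a + n + 1) - g (a + n)) + (g (a + n) - g a) := by
      push_cast
      rw [← add_assoc]
      ring
    rw [h2]
    exact (abs_add_le _ _).trans (add_le_add le_rfl ih)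

/-- the variation between two points of `[-ρ, ρ]`, squared -/
lemma side_le (g : ℤ → ℝ) {ρ : ℕ} {x y : ℤ} (hx : |x| ≤ ρ) (hy : |y| ≤ ρ) :
    (g x - g y) ^ 2 ≤ 2 * ρ * ∑ j ∈ Finset.Ico (-(ρ : ℤ)) ρ, (g (j + 1) - g j) ^ 2 := by
  have key : ∀ x y : ℤ, |x| ≤ ρ → |y| ≤ ρ → x ≤ y →
      (g y - g x) ^ 2 ≤ 2 * ρ * ∑ j ∈ Finset.Ico (-(ρ : ℤ)) ρ, (g (j + 1) - g j) ^ 2 := by
    intro x y hx hy hxy
    rw [abs_le] at hx hy
    have h1 := seg_le g hxy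
    have h2 : ∑ j ∈ Finset.Ico x y, |g (j + 1) - g j| ≤
        ∑ j ∈ Finset.Ico (-(ρ : ℤ)) ρ, |g (j + 1) - g j| :=
      Finset.sum_le_sum_of_subset_of_nonneg (Finset.Ico_subset_Ico hx.1 hy.2)
        fun _ _ _ => abs_nonneg _
    have h3 := Finset.sum_mul_sq_le_sq_mul_sq (Finset.Ico (-(ρ : ℤ)) ρ) (fun _ => (1 : ℝ))
      (fun j => |g (j + 1) - g j|)
    simp only [one_mul, one_pow, Finset.sum_const, Int.card_Ico, nsmul_eq_mul, mul_one,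
      sq_abs] at h3
    have h4 : (((ρ : ℤ) - -(ρ : ℤ)).toNat : ℝ) = 2 * ρ := by
      rw [show (ρ : ℤ) - -(ρ : ℤ) = ((2 * ρ : ℕ) : ℤ) by push_cast; ring, Int.toNat_natCast]
      push_cast
      ring
    rw [h4] at h3
    have h5 : (g y - g x) ^ 2 ≤ (∑ j ∈ Finset.Ico (-(ρ : ℤ)) ρ, |g (j + 1) - g j|) ^ 2 := by
      rw [← sq_abs]
      exact pow_le_pow_left₀ (abs_nonneg _) (h1.trans h2) 2
    exact h5.trans h3
  rcases le_total x y with h | h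
  · have := key x y hx hy h
    rwa [show (g x - g y) ^ 2 = (g y - g x) ^ 2 by ring]
  · exact key y x hy hx h

/-! ### the ring -/

/-- energy of a column, resp. row, relative to `f0` -/
noncomputable def colE (v : Z2 → ℝ) (f0 : Z2) (b : ℕ) (i : ℤ) : ℝ :=
  ∑ j ∈ Finset.Ico (-(b : ℤ)) b,
    (v (f0.1 + i, f0.2 + (j + 1)) - v (f0.1 + i, f0.2 + j)) ^ 2

noncomputable def rowE (v : Z2 → ℝ) (f0 : Z2) (b : ℕ) (j : ℤ) : ℝ :=
  ∑ i ∈ Finset.Ico (-(b : ℤ)) b,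
    (v (f0.1 + (i + 1), f0.2 + j) - v (f0.1 + i, f0.2 + j)) ^ 2

lemma colE_nonneg (v : Z2 → ℝ) (f0 : Z2) (b : ℕ) (i : ℤ) : 0 ≤ colE v f0 b i :=
  Finset.sum_nonneg fun _ _ => sq_nonneg _

lemma rowE_nonneg (v : Z2 → ℝ) (f0 : Z2) (b : ℕ) (i : ℤ) : 0 ≤ rowE v f0 b i :=
  Finset.sum_nonneg fun _ _ => sq_nonneg _

lemma colE_mono (v : Z2 → ℝ) (f0 : Z2) {ρ b : ℕ} (h : ρ ≤ b) (i : ℤ) :
    colE v f0 ρ i ≤ colE v f0 b i :=
  Finset.sum_le_sum_of_subset_of_nonneg (Finset.Ico_subset_Ico (by omega) (by omega))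
    fun _ _ _ => sq_nonneg _

lemma rowE_mono (v : Z2 → ℝ) (f0 : Z2) {ρ b : ℕ} (h : ρ ≤ b) (i : ℤ) :
    rowE v f0 ρ i ≤ rowE v f0 b i :=
  Finset.sum_le_sum_of_subset_of_nonneg (Finset.Ico_subset_Ico (by omega) (by omega))
    fun _ _ _ => sq_nonneg _

/-- the square ring of radius `ρ` -/
def ring (f0 : Z2) (ρ : ℕ) : Set Z2 :=
  {f | |f.1 - f0.1| ≤ ρ ∧ |f.2 - f0.2| ≤ ρ ∧ (|f.1 - f0.1| = ρ ∨ |f.2 - f0.2| = ρ)}

/-- energy of the ring -/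
noncomputable def ringE (v : Z2 → ℝ) (f0 : Z2) (ρ : ℕ) : ℝ :=
  colE v f0 ρ ρ + colE v f0 ρ (-ρ) + rowE v f0 ρ ρ + rowE v f0 ρ (-ρ)

lemma ringE_nonneg (v : Z2 → ℝ) (f0 : Z2) (ρ : ℕ) : 0 ≤ ringE v f0 ρ := by
  unfold ringE
  linarith [colE_nonneg v f0 ρ ρ, colE_nonneg v f0 ρ (-ρ), rowE_nonneg v f0 ρ ρ,
    rowE_nonneg v f0 ρ (-ρ)]

/-- distance of a point of the ring to the corner -/
lemma ring_corner (v : Z2 → ℝ) {f0 f : Z2} {ρ : ℕ} (hf : f ∈ ring f0 ρ) :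
    ∃ c1 c2 : ℝ, 0 ≤ c1 ∧ 0 ≤ c2 ∧ c1 + c2 ≤ ringE v f0 ρ ∧
      |v f - v (f0.1 + ρ, f0.2 + ρ)| ≤ Real.sqrt (2 * ρ * c1) + Real.sqrt (2 * ρ * c2) := by
  have hcol : ∀ (i x y : ℤ), |x| ≤ ρ → |y| ≤ ρ →
      |v (f0.1 + i, f0.2 + x) - v (f0.1 + i, f0.2 + y)| ≤ Real.sqrt (2 * ρ * colE v f0 ρ i) :=
    fun i x y hx hy => Real.abs_le_sqrt (side_le (fun j => v (f0.1 + i, f0.2 + j)) hx hy)
  have hrow : ∀ (j x y : ℤ), |x| ≤ ρ → |y| ≤ ρ →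
      |v (f0.1 + x, f0.2 + j) - v (f0.1 + y, f0.2 + j)| ≤ Real.sqrt (2 * ρ * rowE v f0 ρ j) :=
    fun j x y hx hy => Real.abs_le_sqrt (side_le (fun i => v (f0.1 + i, f0.2 + j)) hx hy)
  have hρ : |(ρ : ℤ)| ≤ ρ := by simp
  have hρ' : |-(ρ : ℤ)| ≤ ρ := by simp
  obtain ⟨h1, h2, h3⟩ := hf
  have hf1 : f = (f0.1 + (f.1 - f0.1), f0.2 + (f.2 - f0.2)) := by ext <;> simp
  have n1 := colE_nonneg v f0 ρ ρ
  have n2 := colE_nonneg v f0 ρ (-ρ)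
  have n3 := rowE_nonneg v f0 ρ ρ
  have n4 := rowE_nonneg v f0 ρ (-ρ)
  rcases h3 with h3 | h3
  · rcases (abs_eq (by positivity)).1 h3 with h4 | h4
    · -- right side
      refine ⟨colE v f0 ρ ρ, 0, n1, le_rfl, by unfold ringE; linarith, ?_⟩
      rw [hf1, h4, mul_zero, Real.sqrt_zero, add_zero]
      exact hcol _ _ _ h2 hρ
    · -- left side
      refine ⟨colE v f0 ρ (-ρ), rowE v f0 ρ ρ, n2, n3, by unfold ringE; linarith, ?_⟩
      rw [hf1, h4]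
      calc _ ≤ |v (f0.1 + -(ρ : ℤ), f0.2 + (f.2 - f0.2)) - v (f0.1 + -(ρ : ℤ), f0.2 + ρ)| +
            |v (f0.1 + -(ρ : ℤ), f0.2 + ρ) - v (f0.1 + ρ, f0.2 + ρ)| := abs_sub_le _ _ _
        _ ≤ _ := add_le_add (hcol _ _ _ h2 hρ) (hrow _ _ _ hρ' hρ)
  · rcases (abs_eq (by positivity)).1 h3 with h4 | h4
    · refine ⟨0, rowE v f0 ρ ρ, le_rfl, n3, by unfold ringE; linarith, ?_⟩
      rw [hf1, h4, mul_zero, Real.sqrt_zero, zero_add]
      exact hrow _ _ _ h1 hρ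
    · refine ⟨rowE v f0 ρ (-ρ), colE v f0 ρ ρ, n4, n1, by unfold ringE; linarith, ?_⟩
      rw [hf1, h4]
      calc _ ≤ |v (f0.1 + (f.1 - f0.1), f0.2 + -(ρ : ℤ)) - v (f0.1 + ρ, f0.2 + -(ρ : ℤ))| +
            |v (f0.1 + ρ, f0.2 + -(ρ : ℤ)) - v (f0.1 + ρ, f0.2 + ρ)| := abs_sub_le _ _ _
        _ ≤ _ := add_le_add (hrow _ _ _ h1 hρ) (hcol _ _ _ hρ' hρ)

lemma ring_osc (v : Z2 → ℝ) {f0 f g : Z2} {ρ : ℕ} (hf : f ∈ ring f0 ρ) (hg : g ∈ ring f0 ρ) :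
    (v f - v g) ^ 2 ≤ 16 * (ρ * ringE v f0 ρ) := by
  have key : ∀ f ∈ ring f0 ρ, |v f - v (f0.1 + ρ, f0.2 + ρ)| ≤
      2 * Real.sqrt (ρ * ringE v f0 ρ) := by
    intro f hf
    obtain ⟨c1, c2, h1, h2, h3, h4⟩ := ring_corner v hf
    have hρ : (0 : ℝ) ≤ ρ := Nat.cast_nonneg _
    refine h4.trans ?_
    have h5 : Real.sqrt (2 * ρ * c1) + Real.sqrt (2 * ρ * c2) ≤
        Real.sqrt (4 * (ρ * ringE v f0 ρ)) := by
      refine Real.le_sqrt_of_sq_le ?_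
      have s1 := Real.sq_sqrt (show 0 ≤ 2 * ρ * c1 by positivity)
      have s2 := Real.sq_sqrt (show 0 ≤ 2 * ρ * c2 by positivity)
      have s3 := sq_nonneg (Real.sqrt (2 * ρ * c1) - Real.sqrt (2 * ρ * c2))
      have s4 : ρ * (c1 + c2) ≤ ρ * ringE v f0 ρ := mul_le_mul_of_nonneg_left h3 hρ
      nlinarith
    refine h5.trans (le_of_eq ?_)
    rw [Real.sqrt_mul (by norm_num), show (4 : ℝ) = 2 ^ 2 by norm_num,
      Real.sqrt_sq (by norm_num)]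
  have h1 := key f hf
  have h2 := key g hg
  have h3 : |v f - v g| ≤ 4 * Real.sqrt (ρ * ringE v f0 ρ) := by
    calc |v f - v g| ≤ |v f - v (f0.1 + ρ, f0.2 + ρ)| + |v (f0.1 + ρ, f0.2 + ρ) - v g| :=
          abs_sub_le _ _ _
      _ ≤ _ := by
          rw [abs_sub_comm (v (f0.1 + ρ, f0.2 + ρ)) (v g)]
          linarith
  have h4 : (0 : ℝ) ≤ ρ * ringE v f0 ρ := mul_nonneg (Nat.cast_nonneg _) (ringE_nonneg v f0 ρ)
  rw [← sq_abs]
  calc |v f - v g| ^ 2 ≤ (4 * Real.sqrt (ρ * ringE v f0 ρ)) ^ 2 :=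
        pow_le_pow_left₀ (abs_nonneg _) h3 2
    _ = 16 * (ρ * ringE v f0 ρ) := by
        rw [mul_pow, Real.sq_sqrt h4]
        ring

/-! ### the choice of the ring -/

lemma log_le_harm {a b : ℕ} (ha : 1 ≤ a) (hab : a ≤ b) :
    Real.log ((b : ℝ) / a) ≤ ∑ ρ ∈ Finset.Ico a b, 1 / (ρ : ℝ) := by
  induction b, hab using Nat.le_induction with
  | base =>
    have : (a : ℝ) ≠ 0 := by positivity
    simp [this]
  | succ b hab ih =>
    rw [Finset.sum_Ico_succ_top hab]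
    have ha' : (0 : ℝ) < a := by exact_mod_cast ha
    have hb' : (0 : ℝ) < b := by
      have : 0 < b := lt_of_lt_of_le ha hab
      exact_mod_cast this
    have h1 : Real.log (((b + 1 : ℕ) : ℝ) / a) =
        Real.log ((b : ℝ) / a) + Real.log (1 + 1 / (b : ℝ)) := by
      rw [← Real.log_mul (by positivity) (by positivity)]
      congr 1
      push_cast
      field_simp
    rw [h1]
    have h2 := Real.log_le_sub_one_of_pos (show 0 < 1 + 1 / (b : ℝ) by positivity)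
    linarith

/-- energy of the box of radius `b` -/
noncomputable def boxE (v : Z2 → ℝ) (f0 : Z2) (b : ℕ) : ℝ :=
  ∑ i ∈ Finset.Ioo (-(b : ℤ)) b, (colE v f0 b i + rowE v f0 b i)

lemma boxE_nonneg (v : Z2 → ℝ) (f0 : Z2) (b : ℕ) : 0 ≤ boxE v f0 b :=
  Finset.sum_nonneg fun i _ => add_nonneg (colE_nonneg v f0 b i) (rowE_nonneg v f0 b i)

lemma sum_ringE_le (v : Z2 → ℝ) (f0 : Z2) {a b : ℕ} (ha : 1 ≤ a) :
    ∑ ρ ∈ Finset.Ico a b, ringE v f0 ρ ≤ boxE v f0 b := by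
  set F : ℤ → ℝ := fun i => colE v f0 b i + rowE v f0 b i with hF
  have hF0 : ∀ i, 0 ≤ F i := fun i => add_nonneg (colE_nonneg v f0 b i) (rowE_nonneg v f0 b i)
  have h1 : ∑ ρ ∈ Finset.Ico a b, ringE v f0 ρ ≤
      ∑ ρ ∈ Finset.Ico a b, F ρ + ∑ ρ ∈ Finset.Ico a b, F (-ρ) := by
    rw [← Finset.sum_add_distrib]
    refine Finset.sum_le_sum fun ρ hρ => ?_
    have hb : ρ ≤ b := (Finset.mem_Ico.1 hρ).2.le
    have e1 := colE_mono v f0 hb (ρ : ℤ)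
    have e2 := colE_mono v f0 hb (-(ρ : ℤ))
    have e3 := rowE_mono v f0 hb (ρ : ℤ)
    have e4 := rowE_mono v f0 hb (-(ρ : ℤ))
    unfold ringE
    simp only [hF]
    linarith
  have h2 : ∑ ρ ∈ Finset.Ico a b, F ρ = ∑ i ∈ (Finset.Ico a b).image (fun ρ : ℕ => (ρ : ℤ)), F i := by
    rw [Finset.sum_image]
    intro x _ y _ hxy
    exact Int.ofNat_injective hxy
  have h3 : ∑ ρ ∈ Finset.Ico a b, F (-ρ) =
      ∑ i ∈ (Finset.Ico a b).image (fun ρ : ℕ => -(ρ : ℤ)), F i := by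
    rw [Finset.sum_image]
    intro x _ y _ hxy
    have : (x : ℤ) = y := neg_injective hxy
    exact_mod_cast this
  rw [h2, h3, ← Finset.sum_union] at h1
  · refine h1.trans (Finset.sum_le_sum_of_subset_of_nonneg ?_ fun i _ _ => hF0 i)
    intro i hi
    simp only [Finset.mem_union, Finset.mem_image, Finset.mem_Ico, Finset.mem_Ioo] at hi ⊢
    rcases hi with ⟨x, hx, rfl⟩ | ⟨x, hx, rfl⟩ <;> constructor <;> omega
  · rw [Finset.disjoint_left]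
    intro i hi hi2
    simp only [Finset.mem_image, Finset.mem_Ico] at hi hi2
    obtain ⟨x, hx, rfl⟩ := hi
    obtain ⟨y, hy, hxy⟩ := hi2
    omega

/-- **Courant-Lebesgue**: some ring has small oscillation -/
theorem exists_ring (v : Z2 → ℝ) (f0 : Z2) {a b : ℕ} (ha : 1 ≤ a) (hab : a < b) :
    ∃ ρ, a ≤ ρ ∧ ρ < b ∧ ∀ f ∈ ring f0 ρ, ∀ g ∈ ring f0 ρ,
      (v f - v g) ^ 2 ≤ 16 * boxE v f0 b / Real.log ((b : ℝ) / a) := by
  have ha' : (0 : ℝ) < a := by exact_mod_cast ha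
  have hlog : 0 < Real.log ((b : ℝ) / a) := by
    apply Real.log_pos
    rw [one_lt_div ha']
    exact_mod_cast hab
  by_contra hcon
  push Not at hcon
  have h1 : ∀ ρ ∈ Finset.Ico a b, boxE v f0 b / Real.log ((b : ℝ) / a) * (1 / (ρ : ℝ)) <
      ringE v f0 ρ := by
    intro ρ hρ
    obtain ⟨hρa, hρb⟩ := Finset.mem_Ico.1 hρ
    obtain ⟨f, hf, g, hg, h2⟩ := hcon ρ hρa hρb
    have h3 := h2.trans_le (ring_osc v hf hg)
    have hρ0 : (0 : ℝ) < ρ := lt_of_lt_of_le ha' (by exact_mod_cast hρa)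
    rw [mul_div_assoc] at h3
    have h4 : boxE v f0 b / Real.log ((b : ℝ) / a) < ρ * ringE v f0 ρ := by linarith
    rw [mul_one_div, div_lt_iff₀ hρ0, mul_comm (ringE v f0 ρ)]
    exact h4
  have h2 := Finset.sum_lt_sum_of_nonempty ⟨a, Finset.mem_Ico.2 ⟨le_rfl, hab⟩⟩ h1
  rw [← Finset.mul_sum] at h2
  have h3 := sum_ringE_le v f0 (b := b) ha
  have h4 := log_le_harm ha hab.le
  have h5 : boxE v f0 b / Real.log ((b : ℝ) / a) * Real.log ((b : ℝ) / a) ≤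
      boxE v f0 b / Real.log ((b : ℝ) / a) * ∑ ρ ∈ Finset.Ico a b, 1 / (ρ : ℝ) :=
    mul_le_mul_of_nonneg_left h4 (div_nonneg (boxE_nonneg v f0 b) hlog.le)
  rw [div_mul_cancel₀ _ hlog.ne'] at h5
  linarith

end Vale.Agent.P159.T1.S.H777
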